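import Vale.Agent.P245.Bdl.B2

set_option linter.unusedSectionVars false

open MeasureTheory Real Set Filter Topology
open scoped ENNReal ContDiff

/-! # TB1: derivative of the gradient energy of a lifted field along a down path -/

namespace Vale.Agent.P245.H991

open LS LS.Down E1

variable {n : ℕ}

/-- `E_q |D²φ|²`, `q = N p_r` -/
noncomputable def D2 {ι : Type*} [Fintype ι] (μ : Measure (Fin n → ℝ)) (r : ℝ)
    (N : (Fin n → ℝ) → ℝ) (φ : ι → (Fin n → ℝ) → ℝ) : ℝ :=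
  EY μ r fun y => N y * ∑ i, ∑ j, ∑ k, pd (pd (φ i) j) k y ^ 2

/-- `E_q ∑_i ⟨Dφ_i, D²V_r Dφ_i⟩` -/
noncomputable def BS {ι : Type*} [Fintype ι] (μ : Measure (Fin n → ℝ)) (r : ℝ)
    (N : (Fin n → ℝ) → ℝ) (φ : ι → (Fin n → ℝ) → ℝ) : ℝ :=
  EY μ r fun y => N y * ∑ i, ∑ j, ∑ k, PV μ r j k y * pd (φ i) j y * pd (φ i) k y

/-- `E_q |Dφ|²` for an arbitrary finite family -/
noncomputable def DEi {ι : Type*} [Fintype ι] (μ : Measure (Fin n → ℝ)) (r : ℝ)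
    (N : (Fin n → ℝ) → ℝ) (φ : ι → (Fin n → ℝ) → ℝ) : ℝ :=
  EY μ r fun y => N y * ∑ i, ∑ j, pd (φ i) j y ^ 2

variable {μ : Measure (Fin n → ℝ)} [IsProbabilityMeasure μ] {R : ℝ} {I : Set ℝ}

/-- down path: gradient energy of a lifted field, abstract form -/
theorem down_grad_deriv {ι : Type*} [Fintype ι]
    {U1 : ι → Fin n → ℝ → (Fin n → ℝ) → ℝ} {U2 : ι → Fin n → Fin n → ℝ → (Fin n → ℝ) → ℝ}
    (h : ∀ i k, Um μ I (U1 i k) (fun σ y => -∑ l, Pv μ l k σ y * U1 i l σ y) (U2 i k))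
    (hμ : CSupp μ R) (hI : IsOpen I) (hI0 : I ⊆ Ioi 0) {N : (Fin n → ℝ) → ℝ} (hN : SB N)
    {c σ : ℝ} (hσ : σ ∈ I) (hc : σ < c) :
    HasDerivAt (fun σ => EY μ σ (fun y => PH (c - σ) N y * ∑ i, ∑ k, U1 i k σ y ^ 2))
      (-(EY μ σ (fun y => PH (c - σ) N y * ∑ i, ∑ k, ∑ j, U2 i k j σ y ^ 2)
        + 2 * EY μ σ (fun y => PH (c - σ) N y *
          ∑ i, ∑ j, ∑ k, Pv μ j k σ y * U1 i j σ y * U1 i k σ y))) σ := by
  have hJ : IsOpen (I ∩ Iio c) := hI.inter isOpen_Iio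
  have hJ0 : I ∩ Iio c ⊆ Ioi 0 := fun x hx => hI0 hx.1
  have hσJ : σ ∈ I ∩ Iio c := ⟨hσ, hc⟩
  have hd : ∀ i k, Um μ (I ∩ Iio c) (U1 i k) _ (U2 i k) := fun i k =>
    (h i k).mono inter_subset_left
  have hD : Dn (I ∩ Iio c) (fun σ => PH (c - σ) N) (fun _ _ => 0) _ :=
    (Dn_PH hN c).mono inter_subset_right
  have key := EY_dual hμ hJ hJ0 (Um.sum Finset.univ fun i _ =>
      Um.sum Finset.univ fun k _ => (hd i k).mul (hd i k)) hD hσJ
  have e0 : (fun σ => EY μ σ (fun y => PH (c - σ) N y * ∑ i, ∑ k, U1 i k σ y ^ 2))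
      = fun σ => EY μ σ (fun y => (∑ i, ∑ k, U1 i k σ y * U1 i k σ y) * PH (c - σ) N y) := by
    funext τ; congr 1; funext y; rw [mul_comm]; congr 1
    apply Finset.sum_congr rfl; intro i _
    apply Finset.sum_congr rfl; intro k _; ring
  rw [e0]
  refine key.congr_deriv ?_
  have uN : UE (I ∩ Iio c) (fun σ => PH (c - σ) N) := UE_PH hN c _
  have uP : ∀ j k, UE (I ∩ Iio c) (Pv μ j k) := fun j k => (H1_Pv hμ j k).uf.mono hJ0
  have u1 : ∀ i k, UE (I ∩ Iio c) (U1 i k) := fun i k => (hd i k).uf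
  have u2 : ∀ i k j, UE (I ∩ Iio c) (U2 i k j) := fun i k j => (hd i k).ua j
  have uA : UE (I ∩ Iio c) (fun σ y => PH (c - σ) N y * ∑ i, ∑ k, ∑ j, U2 i k j σ y ^ 2) :=
    uN.mul (UE.sum _ fun i _ => UE.sum _ fun k _ => UE.sum _ fun j _ => by
      simpa only [sq] using (u2 i k j).mul (u2 i k j))
  have uB : UE (I ∩ Iio c) (fun σ y => PH (c - σ) N y *
      ∑ i, ∑ j, ∑ k, Pv μ j k σ y * U1 i j σ y * U1 i k σ y) :=
    uN.mul (UE.sum _ fun i _ => UE.sum _ fun j _ => UE.sum _ fun k _ =>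
      ((uP j k).mul (u1 i j)).mul (u1 i k))
  have e1 : -(EY μ σ (fun y => PH (c - σ) N y * ∑ i, ∑ k, ∑ j, U2 i k j σ y ^ 2)
        + 2 * EY μ σ (fun y => PH (c - σ) N y *
          ∑ i, ∑ j, ∑ k, Pv μ j k σ y * U1 i j σ y * U1 i k σ y))
      = EY μ σ (fun y => (-1) * (PH (c - σ) N y * ∑ i, ∑ k, ∑ j, U2 i k j σ y ^ 2)
        + (-2) * (PH (c - σ) N y *
          ∑ i, ∑ j, ∑ k, Pv μ j k σ y * U1 i j σ y * U1 i k σ y)) := by
    have c1 := uA.const_mul (-1)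
    have c2 := uB.const_mul (-2)
    rw [EY_add' hμ (c1.cont hσJ) (c1.eg1 hσJ) (c2.cont hσJ) (c2.eg1 hσJ), EY_const_mul,
      EY_const_mul]
    ring
  rw [e1]
  congr 1
  funext y
  rw [mul_zero, add_zero]
  have e2 : ∑ i, ∑ k, ((-∑ l, Pv μ l k σ y * U1 i l σ y) * U1 i k σ y
        + U1 i k σ y * (-∑ l, Pv μ l k σ y * U1 i l σ y) - ∑ j, U2 i k j σ y * U2 i k j σ y)
      = -(∑ i, ∑ k, ∑ j, U2 i k j σ y ^ 2)
        - 2 * ∑ i, ∑ j, ∑ k, Pv μ j k σ y * U1 i j σ y * U1 i k σ y := by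
    rw [← Finset.sum_neg_distrib, Finset.mul_sum, ← Finset.sum_sub_distrib]
    apply Finset.sum_congr rfl; intro i _
    rw [Finset.sum_comm (f := fun j k => Pv μ j k σ y * U1 i j σ y * U1 i k σ y),
      ← Finset.sum_neg_distrib, Finset.mul_sum, ← Finset.sum_sub_distrib]
    apply Finset.sum_congr rfl; intro k _
    have s1 : ∑ j, U2 i k j σ y * U2 i k j σ y = ∑ j, U2 i k j σ y ^ 2 := by
      apply Finset.sum_congr rfl; intro j _; ring
    have s2 : (∑ l, Pv μ l k σ y * U1 i l σ y) * U1 i k σ y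
        = ∑ l, Pv μ l k σ y * U1 i l σ y * U1 i k σ y := Finset.sum_mul _ _ _
    rw [s1, ← s2]
    ring
  rw [e2]
  ring

/-- `E_q ⟨φ, ψ⟩` for arbitrary finite families -/
noncomputable def IPi {ι : Type*} [Fintype ι] (μ : Measure (Fin n → ℝ)) (r : ℝ)
    (N : (Fin n → ℝ) → ℝ) (φ ψ : ι → (Fin n → ℝ) → ℝ) : ℝ :=
  EY μ r fun y => N y * ∑ i, φ i y * ψ i y

theorem pd_pd_UL {s : ℝ} (hμ : CSupp μ R) (hs : 0 < s) {h : (Fin n → ℝ) → ℝ} (hh : SB h)
    {ρ : ℝ} (hρ : s < ρ) (j k : Fin n) :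
    pd (pd (UL μ s ρ h) j) k = hL μ s h j k ρ := by
  rw [pd_UL' (thUL n) hμ hs hh (show ρ ∈ Ici s from hρ.le)]
  exact (H1_gL (thUL n) hμ hs hh j).pd_eq (show ρ ∈ Ioi s from hρ) k

/-- **TB1**: the gradient energy of a lifted family along the down path -/
theorem tb1 {ι : Type*} [Fintype ι] (hμ : CSupp μ R) {N : (Fin n → ℝ) → ℝ} (hN : Pos N)
    {s T : ℝ} (hs : 0 < s) {φ : ι → (Fin n → ℝ) → ℝ} (hφ : ∀ i, SB (φ i)) :
    ContinuousOn (fun ρ => DEi μ ρ (PH (T - ρ) N) (fun i => UL μ s ρ (φ i))) (Icc s T) ∧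
    ∀ ρ ∈ Ioo s T, HasDerivAt (fun ρ => DEi μ ρ (PH (T - ρ) N) (fun i => UL μ s ρ (φ i)))
      (-(D2 μ ρ (PH (T - ρ) N) (fun i => UL μ s ρ (φ i))
        + 2 * BS μ ρ (PH (T - ρ) N) (fun i => UL μ s ρ (φ i)))) ρ := by
  constructor
  · have uV : UE (Icc s T) (fun ρ => PH (T - ρ) N) := UE_PH hN.sb T _
    have uG : ∀ i j, UE (Icc s T) (fun ρ => pd (UL μ s ρ (φ i)) j) := fun i j =>
      (UE_pdUL (thUL n) hμ hs (hφ i) j).mono fun _ h => h.1
    exact UE.EY_cont_Icc hμ (uV.mul (UE.sum _ fun i _ => UE.sum _ fun j _ => by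
      simpa only [sq] using (uG i j).mul (uG i j)))
  · intro ρ hρ
    have hρ0 : 0 < ρ := hs.trans hρ.1
    have h1 := down_grad_deriv (I := Ioi s) (U1 := fun i k => gL μ s (φ i) k)
      (U2 := fun i k => hL μ s (φ i) k) (fun i k => Um_gL (thUL n) hμ hs (hφ i) k) hμ
      isOpen_Ioi (gL_sub hs) hN.sb (c := T) hρ.1 hρ.2
    have e : (fun ρ => DEi μ ρ (PH (T - ρ) N) (fun i => UL μ s ρ (φ i))) =ᶠ[𝓝 ρ]
        (fun σ => EY μ σ (fun y => PH (T - σ) N y * ∑ i, ∑ k, gL μ s (φ i) k σ y ^ 2)) := by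
      filter_upwards [Ioo_mem_nhds hρ.1 hρ.2] with σ hσ
      unfold DEi
      congr 1
      funext y
      congr 1
      apply Finset.sum_congr rfl; intro i _
      apply Finset.sum_congr rfl; intro j _
      rw [pd_UL' (thUL n) hμ hs (hφ i) (show σ ∈ Ici s from hσ.1.le)]
    refine (h1.congr_of_eventuallyEq e).congr_deriv ?_
    have e1 : EY μ ρ (fun y => PH (T - ρ) N y * ∑ i, ∑ k, ∑ j, hL μ s (φ i) k j ρ y ^ 2)
        = D2 μ ρ (PH (T - ρ) N) (fun i => UL μ s ρ (φ i)) := by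
      unfold D2
      congr 1
      funext y
      congr 1
      apply Finset.sum_congr rfl; intro i _
      apply Finset.sum_congr rfl; intro j _
      apply Finset.sum_congr rfl; intro k _
      rw [pd_pd_UL hμ hs (hφ i) hρ.1 j k]
    have e2 : EY μ ρ (fun y => PH (T - ρ) N y *
          ∑ i, ∑ j, ∑ k, Pv μ j k ρ y * gL μ s (φ i) j ρ y * gL μ s (φ i) k ρ y)
        = BS μ ρ (PH (T - ρ) N) (fun i => UL μ s ρ (φ i)) := by
      unfold BS
      congr 1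
      funext y
      congr 1
      apply Finset.sum_congr rfl; intro i _
      apply Finset.sum_congr rfl; intro j _
      apply Finset.sum_congr rfl; intro k _
      rw [PV_eq' hμ hρ0, pd_UL' (thUL n) hμ hs (hφ i) (show ρ ∈ Ici s from hρ.1.le),
        pd_UL' (thUL n) hμ hs (hφ i) (show ρ ∈ Ici s from hρ.1.le)]
    rw [e1, e2]

/-- the second moment of a lifted family along the down path -/
theorem tb0 {ι : Type*} [Fintype ι] (hμ : CSupp μ R) {N : (Fin n → ℝ) → ℝ} (hN : Pos N)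
    {s T : ℝ} (hs : 0 < s) {φ : ι → (Fin n → ℝ) → ℝ} (hφ : ∀ i, SB (φ i)) :
    ContinuousOn (fun ρ => IPi μ ρ (PH (T - ρ) N) (fun i => UL μ s ρ (φ i))
      (fun i => UL μ s ρ (φ i))) (Icc s T) ∧
    ∀ ρ ∈ Ioo s T, HasDerivAt (fun ρ => IPi μ ρ (PH (T - ρ) N) (fun i => UL μ s ρ (φ i))
      (fun i => UL μ s ρ (φ i))) (-(DEi μ ρ (PH (T - ρ) N) (fun i => UL μ s ρ (φ i)))) ρ := by
  constructor
  · have uV : UE (Icc s T) (fun ρ => PH (T - ρ) N) := UE_PH hN.sb T _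
    have uU : ∀ i, UE (Icc s T) (fun ρ => UL μ s ρ (φ i)) := fun i =>
      (thUL n μ R hμ s (φ i) hs (hφ i)).1.mono fun _ h => h.1
    exact UE.EY_cont_Icc hμ (uV.mul (UE.sum _ fun i _ => (uU i).mul (uU i)))
  · intro ρ hρ
    have hJ : IsOpen (Ioi s ∩ Iio T) := isOpen_Ioi.inter isOpen_Iio
    have hJ0 : Ioi s ∩ Iio T ⊆ Ioi 0 := fun x hx => hs.trans hx.1
    have hρJ : ρ ∈ Ioi s ∩ Iio T := ⟨hρ.1, hρ.2⟩
    have hd : ∀ i, Um μ (Ioi s ∩ Iio T) (fun ρ => UL μ s ρ (φ i)) (fun _ _ => 0)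
        (gL μ s (φ i)) := fun i => (Um_UL (thUL n) hμ hs (hφ i)).mono inter_subset_left
    have key := EY_dual hμ hJ hJ0 (Um.sum Finset.univ fun i _ => (hd i).mul (hd i))
        ((Dn_PH hN.sb T).mono inter_subset_right) hρJ
    have e0 : (fun σ => IPi μ σ (PH (T - σ) N) (fun i => UL μ s σ (φ i))
        (fun i => UL μ s σ (φ i)))
        = fun σ => EY μ σ (fun y => (∑ i, UL μ s σ (φ i) y * UL μ s σ (φ i) y)
          * PH (T - σ) N y) := by
      funext τ; unfold IPi; congr 1; funext y; rw [mul_comm]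
    rw [e0]
    refine key.congr_deriv ?_
    have e1 : -(DEi μ ρ (PH (T - ρ) N) (fun i => UL μ s ρ (φ i)))
        = EY μ ρ (fun y => (-1) * (PH (T - ρ) N y * ∑ i, ∑ j, gL μ s (φ i) j ρ y ^ 2)) := by
      rw [EY_const_mul]
      unfold DEi
      rw [neg_one_mul]
      congr 2
      funext y
      congr 1
      apply Finset.sum_congr rfl; intro i _
      apply Finset.sum_congr rfl; intro j _
      rw [pd_UL' (thUL n) hμ hs (hφ i) (show ρ ∈ Ici s from hρ.1.le)]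
    rw [e1]
    congr 1
    funext y
    rw [mul_zero, add_zero]
    have e2 : ∑ i, (0 * UL μ s ρ (φ i) y + UL μ s ρ (φ i) y * 0
        - ∑ j, gL μ s (φ i) j ρ y * gL μ s (φ i) j ρ y)
        = -∑ i, ∑ j, gL μ s (φ i) j ρ y ^ 2 := by
      rw [← Finset.sum_neg_distrib]
      apply Finset.sum_congr rfl; intro i _
      rw [zero_mul, mul_zero, zero_add, zero_sub]
      congr 1
      apply Finset.sum_congr rfl; intro j _; ring
    rw [e2]
    ring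

end Vale.Agent.P245.H991
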