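import Vale.Agent.P245.H485.FinDefs
import Vale.Agent.P245.H468.ChR
import Vale.Agent.P245.H719.Sym
import Vale.Agent.P245.H652.Top

/-! # P245: the interface between the dynamic and the static half

* `GLev` : the law and the field at the good level;
* `LUp` : Lemma U as a property of the law;
* `StaticT`, `DynT` and the assembly `core_of`. -/

open MeasureTheory Real Set Filter Topology

namespace Vale.Agent.P245.H991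

open LS E1 H485

variable {n : ℕ}

/-- `E_q |Dφ (1 - Q)|²`, `φ : Fin m → field`, `1 - Q` acting on the derivative index -/
noncomputable def fRE {m : ℕ} (μ : Measure (Fin n → ℝ)) (r : ℝ) (N : (Fin n → ℝ) → ℝ)
    (φ : Fin m → (Fin n → ℝ) → ℝ) (Q : (Fin n → ℝ) → Matrix (Fin n) (Fin n) ℝ) : ℝ :=
  EY μ r fun y => N y * ∑ a, ∑ e, (pd (φ a) e y - ∑ f, Q y e f * pd (φ a) f y) ^ 2

/-- `|Q²| ≤ |Q|` (Frobenius norms); holds if the operator norm of `Q` is at most one -/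
def OpQ (Q : (Fin n → ℝ) → Matrix (Fin n) (Fin n) ℝ) : Prop :=
  ∀ y : Fin n → ℝ, Vale.Agent.P254.SP620.fr (Q y * Q y) ≤ Vale.Agent.P254.SP620.fr (Q y)

/-- **Lemma U as a property of the law** `q = N p_r`: `t` = size of the step, `be` = slack,
`g0` = bound for `(E_q |D² log N|²)^{1/2}` (line A) or `0` (line U). -/
def LUp (μ : Measure (Fin n → ℝ)) (κ r t be g0 : ℝ) (N : (Fin n → ℝ) → ℝ) : Prop :=
  ∀ (m : ℕ) (φ : Fin m → (Fin n → ℝ) → ℝ) (Q : (Fin n → ℝ) → Matrix (Fin n) (Fin n) ℝ) (c : ℝ),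
    (∀ a, SB (φ a)) → SBm Q → (∀ y, (Q y).transpose = Q y) → OpQ Q → 0 ≤ c →
    c / 2 * (H468.IP μ r N φ φ - H468.Co (gsn m) μ r N φ (H468.RL c φ)) - be
        - t / 2 * (FI μ r N + c * H468.DE μ r N φ)
      ≤ κ * (√(c * fRE μ r N φ Q) + √(mSq μ r N Q / t)
          + √(mDE μ r N Q + mFl μ r N Q + g0 * √(mSq μ r N Q)) + √(FI μ r N)
          + √(t / r * (FI μ r N + c * H468.DE μ r N φ))) ^ 2

/-- **The good level**: law `q = N p_r`, field `f` -/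
structure GLev (μ : Measure (Fin n → ℝ)) (C0 κ r : ℝ) (N : (Fin n → ℝ) → ℝ)
    (f : Fin n → (Fin n → ℝ) → ℝ) (h Ka M : ℝ) : Prop where
  lo : 2 * (κ / C0) ≤ r
  hi : r ≤ 3 * (κ / C0)
  pos : Pos N
  one : EY μ r N = 1
  sf : ∀ i, SB (f i)
  F0 : 0 < FI μ r N
  he : HE μ r N ≤ κ * FI μ r N
  slack : κ * FI μ r N - HE μ r N ≤ Ka * FI μ r N
  e_lo : (1 - h) * FI μ r N ≤ 2 * κ * DE μ r N f
  e_hi : 2 * κ * DE μ r N f ≤ (1 + h) * FI μ r N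
  v_lo : (1 - h) * FI μ r N ≤ IP μ r N f f
  v_hi : IP μ r N f f ≤ (1 + h) * FI μ r N
  tb : 2 * κ * D2 μ r N f ≤ (1 + h) * DE μ r N f
  fl : r * BS μ r N f ≤ h * DE μ r N f
  aa : H719.AA μ r N f ≤ h * DE μ r N f
  da : 2 * κ * H719.DA μ r N f ≤ h * DE μ r N f
  co : E1.Pred μ r N f (M * (κ * FI μ r N)) (h * FI μ r N)

/-- the static half -/
def StaticT : Prop :=
  ∃ C0 h ep M : ℝ, 4000 ≤ C0 ∧ 0 < h ∧ h ≤ 1 / 100 ∧ 100 ≤ C0 * h ∧ 0 < ep ∧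
    ep ≤ 1 / 100 ∧ 1 ≤ M ∧
    ∀ Ka : ℝ, ∃ K1 : ℝ, ∀ (n : ℕ) (ρ0 : (Fin n → ℝ) → ℝ) (R κ r : ℝ)
      (N : (Fin n → ℝ) → ℝ) (f : Fin n → (Fin n → ℝ) → ℝ) (g0 : ℝ), 1 ≤ n → LCd ρ0 →
      IsProbabilityMeasure (mu ρ0) → CSupp (mu ρ0) R → ExpM (mu ρ0) 1 → K1 ≤ κ →
      GLev (mu ρ0) C0 κ r N f h Ka M → 0 ≤ g0 → g0 ^ 2 ≤ FI (mu ρ0) r N / κ →
      LUp (mu ρ0) κ r (ep * r) (Ka * FI (mu ρ0) r N) g0 N → False

/-- the dynamic half -/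
def DynT : Prop :=
  ∀ C0 h ep M : ℝ, 4000 ≤ C0 → 0 < h → h ≤ 1 / 100 → 100 ≤ C0 * h → 0 < ep →
    ep ≤ 1 / 100 → 1 ≤ M →
    ∃ Ka K2 : ℝ, ∀ (n : ℕ) (ρ0 : (Fin n → ℝ) → ℝ) (R κ : ℝ), 1 ≤ n → LCd ρ0 →
      IsProbabilityMeasure (mu ρ0) → CSupp (mu ρ0) R → ExpM (mu ρ0) 1 → K2 ≤ κ →
      DBS (mu ρ0) (2 * (κ / C0)) (κ / C0) κ 0 →
      (∀ d, 0 < d → ∃ (σ : ℝ) (N : (Fin n → ℝ) → ℝ), σ ∈ Icc (2 * (κ / C0)) (3 * (κ / C0)) ∧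
        Pos N ∧ EY (mu ρ0) σ N = 1 ∧ 0 < FI (mu ρ0) σ N ∧
        (κ - d) * FI (mu ρ0) σ N ≤ HE (mu ρ0) σ N) →
      ∃ (r : ℝ) (N : (Fin n → ℝ) → ℝ) (f : Fin n → (Fin n → ℝ) → ℝ) (g0 : ℝ),
        GLev (mu ρ0) C0 κ r N f h Ka M ∧ 0 ≤ g0 ∧ g0 ^ 2 ≤ FI (mu ρ0) r N / κ ∧
        LUp (mu ρ0) κ r (ep * r) (Ka * FI (mu ρ0) r N) g0 N

/-- assembly -/
theorem core_of (hS : StaticT) (hD : DynT) : ∃ C0 K1 : ℝ, 4 ≤ C0 ∧ H652.Core C0 K1 := by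
  obtain ⟨C0, h, ep, M, h1, h2, h3, h4, h5, h6, h7, hS⟩ := hS
  obtain ⟨Ka, K2, hD⟩ := hD C0 h ep M h1 h2 h3 h4 h5 h6 h7
  obtain ⟨K1, hS⟩ := hS Ka
  refine ⟨C0, max K1 K2, by linarith, ?_⟩
  intro n ρ0 R κ hn hL hP hC hE hK hDB hnear
  obtain ⟨r, N, f, g0, g1, g2, g3, g4⟩ :=
    hD n ρ0 R κ hn hL hP hC hE ((le_max_right _ _).trans hK) hDB hnear
  exact hS n ρ0 R κ r N f g0 hn hL hP hC hE ((le_max_left _ _).trans hK) g1 g2 g3 g4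

end Vale.Agent.P245.H991
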