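import Mathlib

/-! # The good level by one mean value theorem (real variable part)

`e = E|Df|²`, `v = E|f|²`, `x = E|A|²`, `y` = slack along a down path `[s, T]`. -/

open Set

namespace Vale.Agent.P245.H991

/-- monotone decrease from the sign of the derivative -/
theorem anti_of_deriv {s T : ℝ} {f f' : ℝ → ℝ} (hc : ContinuousOn f (Icc s T))
    (hd : ∀ ρ ∈ Ioo s T, HasDerivAt f (f' ρ) ρ) (h0 : ∀ ρ ∈ Ioo s T, f' ρ ≤ 0) :
    AntitoneOn f (Icc s T) := by
  apply antitoneOn_of_deriv_nonpos (convex_Icc s T) hc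
  · intro ρ hρ
    rw [interior_Icc] at hρ
    exact (hd ρ hρ).differentiableAt.differentiableWithinAt
  · intro ρ hρ
    rw [interior_Icc] at hρ
    rw [(hd ρ hρ).deriv]
    exact h0 ρ hρ

/-- the standing data on a down path -/
structure PathData (s T κ b : ℝ) (e v x y d2 bs da c g : ℝ → ℝ) : Prop where
  hsT : s < T
  hb : 0 < b
  hκ : 0 < κ
  ce : ContinuousOn e (Icc s T)
  cv : ContinuousOn v (Icc s T)
  cx : ContinuousOn x (Icc s T)
  cy : ContinuousOn y (Icc s T)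
  de : ∀ ρ ∈ Ioo s T, HasDerivAt e (-(d2 ρ + 2 * bs ρ)) ρ
  dv : ∀ ρ ∈ Ioo s T, HasDerivAt v (-(e ρ)) ρ
  dx : ∀ ρ ∈ Ioo s T, HasDerivAt x (-(da ρ) - 4 * c ρ) ρ
  dy : ∀ ρ ∈ Ioo s T, HasDerivAt y (g ρ) ρ
  d20 : ∀ ρ ∈ Ioo s T, 0 ≤ d2 ρ
  bs0 : ∀ ρ ∈ Ioo s T, 0 ≤ bs ρ
  da0 : ∀ ρ ∈ Ioo s T, 0 ≤ da ρ
  x0 : ∀ ρ ∈ Icc s T, 0 ≤ x ρ
  e0 : ∀ ρ ∈ Icc s T, 0 ≤ e ρ
  hc : ∀ ρ ∈ Ioo s T, c ρ ^ 2 ≤ x ρ * bs ρ / b
  xs : x s = 0

variable {s T κ b : ℝ} {e v x y d2 bs da c g : ℝ → ℝ}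

namespace PathData

theorem e_anti (P : PathData s T κ b e v x y d2 bs da c g) : AntitoneOn e (Icc s T) :=
  anti_of_deriv P.ce P.de fun ρ hρ => by
    have := P.d20 ρ hρ; have := P.bs0 ρ hρ; linarith

theorem ls (P : PathData s T κ b e v x y d2 bs da c g) : s ∈ Icc s T := ⟨le_rfl, P.hsT.le⟩

theorem lT (P : PathData s T κ b e v x y d2 bs da c g) : T ∈ Icc s T := ⟨P.hsT.le, le_rfl⟩

theorem v_anti (P : PathData s T κ b e v x y d2 bs da c g) : AntitoneOn v (Icc s T) :=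
  anti_of_deriv P.cv P.dv fun ρ hρ => by
    have := P.e0 ρ (Ioo_subset_Icc_self hρ); linarith

/-- `v` decreases by at most `L e(s)` -/
theorem v_drop (P : PathData s T κ b e v x y d2 bs da c g) {ρ : ℝ} (hρ : ρ ∈ Icc s T) :
    v s - (T - s) * e s ≤ v ρ := by
  have h1 : AntitoneOn (fun ρ => -(v ρ + e s * ρ)) (Icc s T) := by
    apply anti_of_deriv (f' := fun ρ => -(-(e ρ) + e s * 1))
    · exact (P.cv.add (continuousOn_const.mul continuousOn_id)).neg
    · intro ρ hρ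
      exact ((P.dv ρ hρ).add ((hasDerivAt_id ρ).const_mul (e s))).neg
    · intro ρ hρ
      have := P.e_anti P.ls (Ioo_subset_Icc_self hρ) hρ.1.le
      linarith
  have h2 := h1 P.ls hρ hρ.1
  simp only at h2
  have h3 : 0 ≤ e s := P.e0 s P.ls
  nlinarith [hρ.2, hρ.1]

/-- the drop of `e` along the path -/
theorem e_drop (P : PathData s T κ b e v x y d2 bs da c g) {a0 a1 : ℝ}
    (h0 : 2 * κ * e s - v s ≤ a0) (h1 : -a1 ≤ 2 * κ * e T - v T) :
    2 * κ * (e s - e T) ≤ (T - s) * e s + a0 + a1 := by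
  have := P.v_drop P.lT
  linarith

/-- antitone functional for `x`, with slope `m` -/
theorem z_anti (P : PathData s T κ b e v x y d2 bs da c g) {lam m : ℝ} (hl : 0 < lam)
    (hm : ∀ ρ ∈ Icc s T, x ρ ≤ m) :
    AntitoneOn (fun ρ => x ρ + e ρ / lam - 2 * lam * m / b * (ρ - s)) (Icc s T) := by
  have hb := P.hb
  apply anti_of_deriv (f' := fun ρ => (-(da ρ) - 4 * c ρ) + (-(d2 ρ + 2 * bs ρ)) / lam
    - 2 * lam * m / b * 1)
  · exact (P.cx.add (P.ce.div_const lam)).sub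
      (continuousOn_const.mul (continuousOn_id.sub continuousOn_const))
  · intro ρ hρ
    exact ((P.dx ρ hρ).add ((P.de ρ hρ).div_const lam)).sub
      (((hasDerivAt_id ρ).sub_const s).const_mul _)
  · intro ρ hρ
    have hρ' := Ioo_subset_Icc_self hρ
    have h1 := P.hc ρ hρ
    have h2 := P.da0 ρ hρ
    have h3 := P.d20 ρ hρ
    have h4 := P.bs0 ρ hρ
    have h5 := P.x0 ρ hρ'
    have h6 := hm ρ hρ'
    -- |4 c| ≤ 2 lam x / b + 2 bs / lam
    have key : -(4 * c ρ) ≤ 2 * lam * x ρ / b + 2 * bs ρ / lam := by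
      have e1 : (2 * c ρ) ^ 2 ≤ (lam * x ρ / b + bs ρ / lam) ^ 2 := by
        have : 4 * (x ρ * bs ρ / b) = 4 * (lam * x ρ / b) * (bs ρ / lam) := by
          field_simp
        nlinarith [sq_nonneg (lam * x ρ / b - bs ρ / lam)]
      have e2 : 0 ≤ lam * x ρ / b + bs ρ / lam := by positivity
      have e3 := abs_le_of_sq_le_sq e1 e2
      have e4 := neg_le_of_abs_le e3
      have : 2 * lam * x ρ / b + 2 * bs ρ / lam = 2 * (lam * x ρ / b + bs ρ / lam) := by ring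
      rw [this]; linarith
    have k2 : 2 * lam * x ρ / b ≤ 2 * lam * m / b := by
      apply div_le_div_of_nonneg_right _ hb.le
      nlinarith
    have k3 : (-(d2 ρ + 2 * bs ρ)) / lam = -(d2 ρ / lam) - 2 * bs ρ / lam := by ring
    have k4 : 0 ≤ d2 ρ / lam := by positivity
    rw [k3]
    linarith

/-- the sup bound for `x` -/
theorem x_le (P : PathData s T κ b e v x y d2 bs da c g) {w : ℝ} (hw : 0 < w)
    (hL : T - s ≤ w * b) {ρ : ℝ} (hρ : ρ ∈ Icc s T) :
    x ρ ≤ 8 * w * (e s - e T) := by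
  obtain ⟨ρ1, h1, h2⟩ := isCompact_Icc.exists_isMaxOn ⟨s, P.ls⟩ P.cx
  have hm : ∀ ρ ∈ Icc s T, x ρ ≤ x ρ1 := fun ρ hρ => h2 hρ
  have hb := P.hb
  set m := x ρ1 with hmdef
  have hm0 : 0 ≤ m := P.x0 ρ1 h1
  have hl : 0 < 1 / (4 * w) := by positivity
  have h3 := P.z_anti hl hm P.ls h1 h1.1
  simp only [P.xs, zero_add, sub_self, mul_zero, sub_zero] at h3
  have h4 : 2 * (1 / (4 * w)) * m / b * (ρ1 - s) ≤ m / 2 := by
    have : ρ1 - s ≤ w * b := by linarith [h1.2]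
    have e1 : 2 * (1 / (4 * w)) * m / b * (ρ1 - s) ≤ 2 * (1 / (4 * w)) * m / b * (w * b) :=
      mul_le_mul_of_nonneg_left this (by positivity)
    have e2 : 2 * (1 / (4 * w)) * m / b * (w * b) = m / 2 := by field_simp; ring
    linarith
  have h5 : e T ≤ e ρ1 := P.e_anti h1 P.lT h1.2
  have h6 : e s / (1 / (4 * w)) = 4 * w * e s := by field_simp
  have h7 : e ρ1 / (1 / (4 * w)) = 4 * w * e ρ1 := by field_simp
  rw [h6, h7] at h3
  have h8 := hm ρ hρ
  nlinarith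

/-- **the good level** -/
theorem good (P : PathData s T κ b e v x y d2 bs da c g) {w a0 a1 a2 a3 η Q : ℝ} (hw : 0 < w)
    (hL : T - s ≤ w * b) (hη : 0 < η) (hQ : 0 ≤ Q)
    (h0 : 2 * κ * e s - v s ≤ a0) (h1 : -a1 ≤ 2 * κ * e T - v T)
    (hy0 : 0 ≤ y s) (hyT : y T ≤ a2) :
    ∃ ρ ∈ Ioo s T, 2 * κ * (d2 ρ + 2 * bs ρ) + 2 * κ / η * da ρ + Q * (g ρ + a3)
      ≤ e ρ + (a0 + a1 + 16 * w * κ / η * (e s - e T) + Q * (a2 + a3 * (T - s))) / (T - s) := by
  have hb := P.hb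
  have hκ := P.hκ
  have hsT := P.hsT
  have hT : 0 < T - s := by linarith
  have hm : ∀ ρ ∈ Icc s T, x ρ ≤ 8 * w * (e s - e T) := fun ρ hρ => P.x_le hw hL hρ
  set m := 8 * w * (e s - e T) with hmdef
  have hm0 : 0 ≤ m := (P.x0 s P.ls).trans (hm s P.ls)
  set lam := 1 / (4 * w) with hlam
  have hl : 0 < lam := by positivity
  set p := 2 * κ / η with hp
  have hp0 : 0 < p := by positivity
  -- the function
  let Φ : ℝ → ℝ := fun ρ => -(2 * κ * e ρ - v ρ)
    - p * (x ρ + e ρ / lam - 2 * lam * m / b * (ρ - s)) + Q * (y ρ + a3 * (ρ - s))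
  let Φ' : ℝ → ℝ := fun ρ => -(2 * κ * (-(d2 ρ + 2 * bs ρ)) - -(e ρ))
    - p * ((-(da ρ) - 4 * c ρ) + (-(d2 ρ + 2 * bs ρ)) / lam - 2 * lam * m / b * 1)
    + Q * (g ρ + a3 * 1)
  have hcont : ContinuousOn Φ (Icc s T) := by
    refine ContinuousOn.add (ContinuousOn.sub ?_ ?_) ?_
    · exact ((continuousOn_const.mul P.ce).sub P.cv).neg
    · exact continuousOn_const.mul ((P.cx.add (P.ce.div_const lam)).sub
        (continuousOn_const.mul (continuousOn_id.sub continuousOn_const)))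
    · exact continuousOn_const.mul (P.cy.add
        (continuousOn_const.mul (continuousOn_id.sub continuousOn_const)))
  have hder : ∀ ρ ∈ Ioo s T, HasDerivAt Φ (Φ' ρ) ρ := by
    intro ρ hρ
    have A := (((P.de ρ hρ).const_mul (2 * κ)).sub (P.dv ρ hρ)).neg
    have B := (((P.dx ρ hρ).add ((P.de ρ hρ).div_const lam)).sub
      (((hasDerivAt_id ρ).sub_const s).const_mul (2 * lam * m / b))).const_mul p
    have C := ((P.dy ρ hρ).add (((hasDerivAt_id ρ).sub_const s).const_mul a3)).const_mul Q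
    exact (A.sub B).add C
  obtain ⟨ρ, hρ, hE⟩ := exists_hasDerivAt_eq_slope Φ Φ' hsT hcont hder
  refine ⟨ρ, hρ, ?_⟩
  have hρ' := Ioo_subset_Icc_self hρ
  -- lower bound for Φ'
  have lo : 2 * κ * (d2 ρ + 2 * bs ρ) + 2 * κ / η * da ρ + Q * (g ρ + a3) - e ρ ≤ Φ' ρ := by
    have q1 := P.hc ρ hρ
    have q3 := P.d20 ρ hρ
    have q4 := P.bs0 ρ hρ
    have q5 := P.x0 ρ hρ'
    have q6 := hm ρ hρ'
    have key : -(4 * c ρ) ≤ 2 * lam * x ρ / b + 2 * bs ρ / lam := by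
      have e1 : (2 * c ρ) ^ 2 ≤ (lam * x ρ / b + bs ρ / lam) ^ 2 := by
        have : 4 * (x ρ * bs ρ / b) = 4 * (lam * x ρ / b) * (bs ρ / lam) := by
          field_simp
        nlinarith [sq_nonneg (lam * x ρ / b - bs ρ / lam)]
      have e2 : 0 ≤ lam * x ρ / b + bs ρ / lam := by positivity
      have e3 := abs_le_of_sq_le_sq e1 e2
      have e4 := neg_le_of_abs_le e3
      have : 2 * lam * x ρ / b + 2 * bs ρ / lam = 2 * (lam * x ρ / b + bs ρ / lam) := by ring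
      rw [this]; linarith
    have k2 : 2 * lam * x ρ / b ≤ 2 * lam * m / b := by
      apply div_le_div_of_nonneg_right _ hb.le
      nlinarith
    have k3 : (-(d2 ρ + 2 * bs ρ)) / lam = -(d2 ρ / lam) - 2 * bs ρ / lam := by ring
    have k4 : 0 ≤ d2 ρ / lam := by positivity
    have k5 : (-(da ρ) - 4 * c ρ) + (-(d2 ρ + 2 * bs ρ)) / lam - 2 * lam * m / b * 1
        ≤ -(da ρ) := by rw [k3]; linarith
    have k6 := mul_le_mul_of_nonneg_left k5 hp0.le
    simp only [Φ']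
    linarith
  -- upper bound for the slope
  have up : Φ T - Φ s ≤ a0 + a1 + 16 * w * κ / η * (e s - e T)
      + Q * (a2 + a3 * (T - s)) := by
    have z2 : 2 * lam * m / b * (T - s) ≤ m / 2 := by
      have e1 : 2 * lam * m / b * (T - s) ≤ 2 * lam * m / b * (w * b) :=
        mul_le_mul_of_nonneg_left hL (by positivity)
      have e2 : 2 * lam * m / b * (w * b) = m / 2 := by rw [hlam]; field_simp; ring
      linarith
    have z3 : e s / lam - e T / lam = 4 * w * (e s - e T) := by rw [hlam]; field_simp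
    have z4 := P.x0 T P.lT
    have z5 := P.xs
    have z6 : Q * (y T - y s) ≤ Q * a2 := mul_le_mul_of_nonneg_left (by linarith) hQ
    have z7 : p * (e s / lam - e T / lam - x T + 2 * lam * m / b * (T - s))
        ≤ p * (8 * w * (e s - e T)) := by
      apply mul_le_mul_of_nonneg_left _ hp0.le
      rw [z3]
      have : m / 2 = 4 * w * (e s - e T) := by rw [hmdef]; ring
      linarith
    have z8 : p * (8 * w * (e s - e T)) = 16 * w * κ / η * (e s - e T) := by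
      rw [hp]; ring
    rw [z8] at z7
    simp only [Φ, z5, sub_self, mul_zero, zero_add, add_zero, sub_zero]
    nlinarith
  have : Φ' ρ ≤ (a0 + a1 + 16 * w * κ / η * (e s - e T) + Q * (a2 + a3 * (T - s)))
      / (T - s) := by
    rw [hE]
    exact div_le_div_of_nonneg_right up hT.le
  linarith

end PathData

end Vale.Agent.P245.H991
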